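import Mathlib

/-!
# Similarity between the standard regular tetrahedron and an arbitrary regular tetrahedron

(row 211, package M1 of S0327; helper88.)  `std` vertices `(±1,0,0)`, `(0,±1,√2)` (edge length 2).
For every `w : Fin 4 → E3` with all pairwise distances equal to `ℓ > 0` there are a linear isometry
equivalence `Q` of `E3` and a vector `b` with `w k = (ℓ/2) • Q (std k) + b`.
-/

set_option autoImplicit false

open scoped RealInnerProductSpace

namespace Crest.Agent.Helper88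

/-- Three-dimensional Euclidean space. -/
abbrev E3 : Type := EuclideanSpace ℝ (Fin 3)

/-- The linear map sending the standard basis to `f1, f2, f3`. -/
noncomputable def frameMap (f1 f2 f3 : E3) : E3 →ₗ[ℝ] E3 where
  toFun x := x 0 • f1 + x 1 • f2 + x 2 • f3
  map_add' x y := by
    simp only [PiLp.add_apply, add_smul]
    abel
  map_smul' c x := by
    simp only [PiLp.smul_apply, smul_eq_mul, RingHom.id_apply, smul_add, mul_smul]

theorem frameMap_apply (f1 f2 f3 x : E3) :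
    frameMap f1 f2 f3 x = x 0 • f1 + x 1 • f2 + x 2 • f3 := rfl

theorem norm_frameMap (f1 f2 f3 : E3)
    (h11 : ⟪f1, f1⟫ = 1) (h22 : ⟪f2, f2⟫ = 1) (h33 : ⟪f3, f3⟫ = 1)
    (h12 : ⟪f1, f2⟫ = 0) (h13 : ⟪f1, f3⟫ = 0) (h23 : ⟪f2, f3⟫ = 0) (x : E3) :
    ‖frameMap f1 f2 f3 x‖ = ‖x‖ := by
  have h21 : ⟪f2, f1⟫ = 0 := by rw [real_inner_comm]; exact h12
  have h31 : ⟪f3, f1⟫ = 0 := by rw [real_inner_comm]; exact h13
  have h32 : ⟪f3, f2⟫ = 0 := by rw [real_inner_comm]; exact h23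
  have hsq : ‖frameMap f1 f2 f3 x‖ ^ 2 = ‖x‖ ^ 2 := by
    rw [← real_inner_self_eq_norm_sq, frameMap_apply, EuclideanSpace.real_norm_sq_eq,
      Fin.sum_univ_three]
    simp only [inner_add_left, inner_add_right, inner_smul_left, inner_smul_right,
      h11, h22, h33, h12, h13, h23, h21, h31, h32, RCLike.conj_to_real]
    ring
  exact (sq_eq_sq₀ (norm_nonneg _) (norm_nonneg _)).mp hsq

/-- The linear isometry equivalence sending the standard basis to an orthonormal triple. -/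
noncomputable def frameIso (f1 f2 f3 : E3)
    (h11 : ⟪f1, f1⟫ = 1) (h22 : ⟪f2, f2⟫ = 1) (h33 : ⟪f3, f3⟫ = 1)
    (h12 : ⟪f1, f2⟫ = 0) (h13 : ⟪f1, f3⟫ = 0) (h23 : ⟪f2, f3⟫ = 0) : E3 ≃ₗᵢ[ℝ] E3 :=
  LinearIsometry.toLinearIsometryEquiv
    ⟨frameMap f1 f2 f3, norm_frameMap f1 f2 f3 h11 h22 h33 h12 h13 h23⟩ rfl

theorem frameIso_apply (f1 f2 f3 : E3)
    (h11 : ⟪f1, f1⟫ = 1) (h22 : ⟪f2, f2⟫ = 1) (h33 : ⟪f3, f3⟫ = 1)
    (h12 : ⟪f1, f2⟫ = 0) (h13 : ⟪f1, f3⟫ = 0) (h23 : ⟪f2, f3⟫ = 0) (x : E3) :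
    frameIso f1 f2 f3 h11 h22 h33 h12 h13 h23 x = x 0 • f1 + x 1 • f2 + x 2 • f3 := rfl


/-- Inner products of the edge vectors of a regular tetrahedron of edge `ℓ`. -/
theorem regular_inner (w : Fin 4 → E3) (ℓ : ℝ)
    (hw : ∀ i j, i ≠ j → dist (w i) (w j) = ℓ) :
    ⟪w 1 - w 0, w 1 - w 0⟫ = ℓ ^ 2 ∧ ⟪w 2 - w 0, w 2 - w 0⟫ = ℓ ^ 2 ∧
    ⟪w 3 - w 0, w 3 - w 0⟫ = ℓ ^ 2 ∧ ⟪w 1 - w 0, w 2 - w 0⟫ = ℓ ^ 2 / 2 ∧
    ⟪w 1 - w 0, w 3 - w 0⟫ = ℓ ^ 2 / 2 ∧ ⟪w 2 - w 0, w 3 - w 0⟫ = ℓ ^ 2 / 2 := by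
  have key : ∀ i j, i ≠ j → ⟪w i - w j, w i - w j⟫ = ℓ ^ 2 := by
    intro i j hij
    rw [real_inner_self_eq_norm_sq, ← dist_eq_norm, hw i j hij]
  have h10 := key 1 0 (by decide)
  have h20 := key 2 0 (by decide)
  have h30 := key 3 0 (by decide)
  have h12 := key 1 2 (by decide)
  have h13 := key 1 3 (by decide)
  have h23 := key 2 3 (by decide)
  have e12 : w 1 - w 2 = (w 1 - w 0) - (w 2 - w 0) := by abel
  have e13 : w 1 - w 3 = (w 1 - w 0) - (w 3 - w 0) := by abel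
  have e23 : w 2 - w 3 = (w 2 - w 0) - (w 3 - w 0) := by abel
  rw [e12, real_inner_sub_sub_self] at h12
  rw [e13, real_inner_sub_sub_self] at h13
  rw [e23, real_inner_sub_sub_self] at h23
  refine ⟨h10, h20, h30, ?_, ?_, ?_⟩
  · linarith
  · linarith
  · linarith

/-- **Similarity** (package M1 of S0327): every regular tetrahedron of edge `ℓ > 0` in `E3` is the
image of the standard one (vertices `(±1,0,0)`, `(0,±1,√2)`) under `x ↦ (ℓ/2) • Q x + b` with `Q` a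
linear isometry equivalence. -/
theorem exists_similarity (w : Fin 4 → E3) (ℓ : ℝ) (hℓ : 0 < ℓ)
    (hw : ∀ i j, i ≠ j → dist (w i) (w j) = ℓ) :
    ∃ (Q : E3 ≃ₗᵢ[ℝ] E3) (b : E3),
      w 0 = (ℓ / 2) • Q !₂[1, 0, 0] + b ∧ w 1 = (ℓ / 2) • Q !₂[-1, 0, 0] + b ∧
      w 2 = (ℓ / 2) • Q !₂[0, 1, Real.sqrt 2] + b ∧
      w 3 = (ℓ / 2) • Q !₂[0, -1, Real.sqrt 2] + b := by
  obtain ⟨haa, hbb, hcc, hab, hac, hbc⟩ := regular_inner w ℓ hw
  have hℓ0 : ℓ ≠ 0 := hℓ.ne'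
  have hs2 : Real.sqrt 2 ≠ 0 := by positivity
  have hss : Real.sqrt 2 * Real.sqrt 2 = 2 := Real.mul_self_sqrt (by norm_num)
  set a : E3 := w 1 - w 0 with ha
  set b : E3 := w 2 - w 0 with hb
  set c : E3 := w 3 - w 0 with hc
  have hba : ⟪b, a⟫ = ℓ ^ 2 / 2 := by rw [real_inner_comm]; exact hab
  have hca : ⟪c, a⟫ = ℓ ^ 2 / 2 := by rw [real_inner_comm]; exact hac
  have hcb : ⟪c, b⟫ = ℓ ^ 2 / 2 := by rw [real_inner_comm]; exact hbc
  let f1 : E3 := (-(1 / ℓ)) • a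
  let f2 : E3 := (1 / ℓ) • (b - c)
  let f3 : E3 := (1 / (Real.sqrt 2 * ℓ)) • (b + c - a)
  have h11 : ⟪f1, f1⟫ = 1 := by
    simp only [f1, inner_smul_left, inner_smul_right, RCLike.conj_to_real, haa]
    field_simp
  have h22 : ⟪f2, f2⟫ = 1 := by
    simp only [f2, inner_smul_left, inner_smul_right, inner_sub_left, inner_sub_right,
      RCLike.conj_to_real, hbb, hcc, hbc, hcb]
    field_simp
    ring
  have h33 : ⟪f3, f3⟫ = 1 := by
    simp only [f3, inner_smul_left, inner_smul_right, inner_sub_left, inner_sub_right,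
      inner_add_left, inner_add_right, RCLike.conj_to_real, haa, hbb, hcc, hab, hac, hbc, hba,
      hca, hcb]
    field_simp
    nlinarith [hss]
  have h12 : ⟪f1, f2⟫ = 0 := by
    simp only [f1, f2, inner_smul_left, inner_smul_right, inner_sub_right,
      RCLike.conj_to_real, hab, hac]
    ring
  have h13 : ⟪f1, f3⟫ = 0 := by
    simp only [f1, f3, inner_smul_left, inner_smul_right, inner_sub_right,
      inner_add_right, RCLike.conj_to_real, haa, hab, hac]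
    ring
  have h23 : ⟪f2, f3⟫ = 0 := by
    simp only [f2, f3, inner_smul_left, inner_smul_right, inner_sub_left, inner_sub_right,
      inner_add_right, RCLike.conj_to_real, hbb, hcc, hbc, hba, hca, hcb]
    ring
  refine ⟨frameIso f1 f2 f3 h11 h22 h33 h12 h13 h23, w 0 - (ℓ / 2) • f1, ?_, ?_, ?_, ?_⟩
  · rw [frameIso_apply]
    simp
  · rw [frameIso_apply]
    simp only [f1, ha]
    ext i
    simp
    field_simp
    ring
  · rw [frameIso_apply]
    simp only [f1, f2, f3, ha, hb, hc]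
    ext i
    simp
    field_simp
    ring
  · rw [frameIso_apply]
    simp only [f1, f2, f3, ha, hb, hc]
    ext i
    simp
    field_simp
    ring


theorem range_fin_four {α : Type*} (w : Fin 4 → α) : Set.range w = {w 0, w 1, w 2, w 3} := by
  ext x
  simp only [Set.mem_range, Set.mem_insert_iff, Set.mem_singleton_iff]
  constructor
  · rintro ⟨i, rfl⟩
    fin_cases i <;> simp
  · rintro (h | h | h | h)
    · exact ⟨0, h.symm⟩
    · exact ⟨1, h.symm⟩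
    · exact ⟨2, h.symm⟩
    · exact ⟨3, h.symm⟩

/-- Hull form of `exists_similarity`. -/
theorem exists_similarity_hull (w : Fin 4 → E3) (ℓ : ℝ) (hℓ : 0 < ℓ)
    (hw : ∀ i j, i ≠ j → dist (w i) (w j) = ℓ) :
    ∃ (Q : E3 ≃ₗᵢ[ℝ] E3) (b : E3),
      convexHull ℝ (Set.range w) = (fun x => (ℓ / 2) • Q x + b) ''
        convexHull ℝ {!₂[1, 0, 0], !₂[-1, 0, 0], !₂[0, 1, Real.sqrt 2],
          !₂[0, -1, Real.sqrt 2]} := by
  obtain ⟨Q, b, h0, h1, h2, h3⟩ := exists_similarity w ℓ hℓ hw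
  refine ⟨Q, b, ?_⟩
  let F : E3 →ᵃ[ℝ] E3 :=
    ((ℓ / 2) • Q.toLinearEquiv.toLinearMap).toAffineMap + AffineMap.const ℝ E3 b
  have hF : ∀ x, F x = (ℓ / 2) • Q x + b := fun x => by simp [F]
  have hFun : (fun x => (ℓ / 2) • Q x + b) = F := by
    funext x
    exact (hF x).symm
  rw [hFun, AffineMap.image_convexHull, range_fin_four]
  congr 1
  simp only [Set.image_insert_eq, Set.image_singleton, hF]
  rw [← h0, ← h1, ← h2, ← h3]

end Crest.Agent.Helper88
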